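import Mathlib
import Vale.Agent.P358h5.Closed

namespace Vale.Agent.Results.P358.RenyiTwoRadius

open Vale.Agent.P358h5 Matrix
open scoped ComplexOrder

/-- New single-letter upper bound on the classical capacity of the generalized amplitude-damping
channel, valid for every block length: for all `(γ, ν)`, every reference state
`ω = diag(1-s, s)` and every upper bound `M` of the purity `W γ ν s q` on `q ∈ [0,1]`, the Holevo
quantity of `𝒜_{γ,ν}^{⊗n}` is at most `n log₂ M` (that is, the sandwiched Rényi-2 radius of the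
channel is additive and bounds the capacity). For amplitude damping (`ν = 0`) this gives the
closed form `log₂((1+r²+3r⁴-r⁶)/(1+r²))`, with `r ∈ (0,1)` solving
`2 r³ = √(1-γ) (1+r⁴)`, which is strictly below `log₂(1+√(1-γ))`. -/
theorem result :
    (∀ γ ν s M : ℝ, 0 ≤ γ → γ ≤ 1 → 0 ≤ ν → ν ≤ 1 → 0 < s → s < 1 →
      (∀ q : ℝ, 0 ≤ q → q ≤ 1 → W γ ν s q ≤ M) →
      ∀ (n : ℕ) (ι : Type) [Fintype ι] (p : ι → ℝ) (ρ : ι → Matrix (Qb n) (Qb n) ℂ),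
        (∀ a, 0 ≤ p a) → ∑ a, p a = 1 → (∀ a, (ρ a).PosSemidef) → (∀ a, (ρ a).trace = 1) →
        holevoN γ ν n p ρ ≤ n * Real.logb 2 M) ∧
    (∀ γ : ℝ, 0 < γ → γ < 1 →
      ∃ r : ℝ, 0 < r ∧ r < 1 ∧ 2 * r ^ 3 = Real.sqrt (1 - γ) * (1 + r ^ 4) ∧
        (1 + r ^ 2 + 3 * r ^ 4 - r ^ 6) / (1 + r ^ 2) < 1 + Real.sqrt (1 - γ) ∧
        ∀ (n : ℕ) (ι : Type) [Fintype ι] (p : ι → ℝ) (ρ : ι → Matrix (Qb n) (Qb n) ℂ),
          (∀ a, 0 ≤ p a) → ∑ a, p a = 1 → (∀ a, (ρ a).PosSemidef) → (∀ a, (ρ a).trace = 1) →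
          holevoN γ 0 n p ρ ≤ n * Real.logb 2 ((1 + r ^ 2 + 3 * r ^ 4 - r ^ 6) / (1 + r ^ 2))) := by
  constructor
  · intro γ ν s M h1 h2 h3 h4 h5 h6 hM n ι _ p ρ hp0 hp1 hρ htr
    exact holevo_bound h1 h2 h3 h4 h5 h6 hM n p hp0 hp1 ρ hρ htr
  · intro γ h0 h1
    obtain ⟨r, hr0, hr1, hr⟩ := exists_r h0 h1
    refine ⟨r, hr0, hr1, hr, radiusForm_lt hr0 hr1 hr, ?_⟩
    intro n ι _ p ρ hp0 hp1 hρ htr
    have hD : 0 < 1 + r ^ 4 := by positivity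
    have hs0 : 0 < r ^ 4 / (1 + r ^ 4) := by positivity
    have hs1 : r ^ 4 / (1 + r ^ 4) < 1 := by
      rw [div_lt_one hD]
      linarith
    exact holevo_bound h0.le h1.le le_rfl zero_le_one hs0 hs1
      (fun q _ _ => W_closed_le hr0 hr1 h1 hr q) n p hp0 hp1 ρ hρ htr

end Vale.Agent.Results.P358.RenyiTwoRadius
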